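import Vale.Agent.P032.S5.H483.IrrZ
import Vale.Agent.P032.S5.H483.EssR
import Vale.Agent.P032.Carr.Supp

/-!
# P032: harmless four-coloured points, the context of the final argument
-/

open Set Filter Topology Metric

noncomputable section

namespace Vale.Agent.P032.Carr

open Vale.Agent.P032.S5 Vale.Agent.P032.Six

/-- `z` is a harmless point with four colours and forbidden pair `A` -/
structure Harm (T : ℂ → Set (Fin 6)) (z : ℂ) (A : Set (Fin 6)) : Prop where
  four : (T z).ncard = 4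
  two : A.ncard = 2
  sub : A ⊆ T z
  h1 : ∀ y, dist y z = 1 → T y ⊆ T z → A ⊆ T y
  h2 : ∃ y, dist y z = 1 ∧ T y = A

/-- the context: harmless exceptional points without unit pairs -/
structure Ctx (U : Fin 6 → Set ℂ) (T : ℂ → Set (Fin 6)) (Z : Set ℂ) (f : ℂ → Set (Fin 6))
    (δ₀ : ℝ) (v : ℂ) : Prop where
  irr : Irr U T
  hm : Hm T Z f δ₀
  harm : ∀ z ∈ Z, Harm T z (f z)
  reg : ∀ z, dist z v ≤ 4 → 4 ≤ (T z).ncard → z ∈ Z
  unit : ∀ z ∈ Z, ∀ z' ∈ Z, dist z z' ≠ 1

variable {U : Fin 6 → Set ℂ} {T : ℂ → Set (Fin 6)} {Z : Set ℂ} {f : ℂ → Set (Fin 6)} {δ₀ : ℝ}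
  {v : ℂ}

theorem Harm.unique {z : ℂ} {A A' : Set (Fin 6)} (h : Harm T z A) (h' : Harm T z A') : A = A' := by
  obtain ⟨y, hy, hyA⟩ := h'.h2
  have h1 : A ⊆ A' := by
    rw [← hyA]
    exact h.h1 y hy (by rw [hyA]; exact h'.sub)
  exact Set.eq_of_subset_of_ncard_le h1 (by rw [h.two, h'.two]) (Set.toFinite _)

/-- near a harmless point the forbidden pair occurs only at points with four colours -/
theorem Harm.forb (h : Irr U T) {z : ℂ} {A : Set (Fin 6)} (hz : Harm T z A) :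
    ∀ᶠ x in 𝓝 z, A ⊆ T x → 4 ≤ (T x).ncard := by
  obtain ⟨y, hy, hyA⟩ := hz.h2
  have := h.no_layer hy
  rwa [hyA] at this

/-- nearby harmless points have the same palette and the same forbidden pair -/
theorem Harm.const (h : Irr U T) {z : ℂ} {A : Set (Fin 6)} (hz : Harm T z A) :
    ∀ᶠ w in 𝓝 z, ∀ B, Harm T w B → B = A := by
  obtain ⟨y, hy, hyA⟩ := hz.h2
  have h1 : Tendsto (fun w => y + (w - z)) (𝓝 z) (𝓝 y) := by
    have : Continuous fun w : ℂ => y + (w - z) := by fun_prop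
    have h2 := this.tendsto z
    simpa using h2
  filter_upwards [h1.eventually (h.nhd y), h.nhd z] with w hw hwz B hB
  have e1 : T w = T z := Set.eq_of_subset_of_ncard_le hwz (by rw [hz.four, hB.four])
    (Set.toFinite _)
  have h2 : B ⊆ T (y + (w - z)) := by
    refine hB.h1 _ ?_ ?_
    · rw [dist_eq_norm] at hy ⊢
      rw [← hy]; congr 1; ring
    · rw [e1]
      exact hw.trans (by rw [hyA]; exact hz.sub)
  have h3 : B ⊆ A := by rw [← hyA]; exact h2.trans hw
  exact Set.eq_of_subset_of_ncard_le h3 (by rw [hz.two, hB.two]) (Set.toFinite _)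

open Classical in
/-- the forbidden pair -/
def fA (T : ℂ → Set (Fin 6)) (z : ℂ) : Set (Fin 6) :=
  if h : ∃ A, Harm T z A then h.choose else ∅

theorem fA_spec {z : ℂ} (h : ∃ A, Harm T z A) : Harm T z (fA T z) := by
  unfold fA
  rw [dif_pos h]
  exact h.choose_spec

/-- **The context exists.** -/
theorem exists_Ctx (h : Irr U T) (c : ℂ) (hH : ∀ z, dist z c ≤ 11 → 4 ≤ (T z).ncard →
      ∃ A, Harm T z A)
    (hU : ∀ z z', dist z c ≤ 11 → dist z' c ≤ 11 → 4 ≤ (T z).ncard → 4 ≤ (T z').ncard →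
      dist z z' ≠ 1) {v : ℂ} (hv : dist v c ≤ 6) :
    ∃ Z δ₀, Ctx U T Z (fA T) δ₀ v := by
  classical
  set C : Set ℂ := {x | 4 ≤ (T x).ncard} ∩ closedBall c 11 with hC
  have hCc : IsCompact C := (isCompact_closedBall c 11).inter_left (h.isClosed_le_card 4)
  have hCd : IsTotallyDisconnected C := fun s hs hs' => h.td s (hs.trans inter_subset_left) hs'
  obtain ⟨lab, hlab, hdist⟩ := ess_lab hCc hCd (ε := 1 / 2) (by norm_num)
  have : CompactSpace C := isCompact_iff_compactSpace.1 hCc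
  let Z' : Set C := {x | dist (lab x) c < 10 + 1 / 2}
  have hZ'c : IsClosed Z' := by
    rw [← isOpen_compl_iff, isOpen_iff_mem_nhds]
    intro x hx
    filter_upwards [hlab x] with y hy hyZ
    have hx' : ¬ dist (lab x) c < 10 + 1 / 2 := hx
    have hy' : dist (lab y) c < 10 + 1 / 2 := hyZ
    rw [hy] at hy'
    exact hx' hy'
  have hZ'o : ∀ x ∈ Z', ∀ᶠ y in 𝓝 x, y ∈ Z' := by
    intro x hx
    filter_upwards [hlab x] with y hy
    have hx' : dist (lab x) c < 10 + 1 / 2 := hx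
    show dist (lab y) c < 10 + 1 / 2
    rw [hy]
    exact hx'
  let Z : Set ℂ := Subtype.val '' Z'
  have hZc : IsCompact Z := (hZ'c.isCompact).image continuous_subtype_val
  have hZC : Z ⊆ C := by rintro _ ⟨x, -, rfl⟩; exact x.2
  have hZ4 : ∀ z ∈ Z, 4 ≤ (T z).ncard := fun z hz => (hZC hz).1
  have hZball : ∀ z ∈ Z, dist z c < 11 := by
    rintro _ ⟨x, hx, rfl⟩
    have h1 := hdist x
    have h2 : dist (lab x) c < 10 + 1 / 2 := hx
    have h3 := dist_triangle (x : ℂ) (lab x) c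
    linarith
  have hreg : ∀ z, dist z c ≤ 10 → 4 ≤ (T z).ncard → z ∈ Z := by
    intro z hz h4
    have hzC : z ∈ C := ⟨h4, mem_closedBall.2 (by linarith)⟩
    refine ⟨⟨z, hzC⟩, ?_, rfl⟩
    have h1 := hdist ⟨z, hzC⟩
    have h3 := dist_triangle_left (lab ⟨z, hzC⟩) c z
    show dist (lab ⟨z, hzC⟩) c < 10 + 1 / 2
    simp only at h1
    linarith
  have hop : ∀ z ∈ Z, ∀ᶠ w in 𝓝 z, 4 ≤ (T w).ncard → w ∈ Z := by
    intro z hz
    have hz' := hz
    obtain ⟨x, hx, rfl⟩ := hz'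
    have h1 := hZ'o x hx
    rw [nhds_subtype_eq_comap, eventually_comap] at h1
    have h2 : ∀ᶠ w in 𝓝 (x : ℂ), dist w c < 11 :=
      (continuous_id.dist continuous_const).continuousAt.eventually
        (Iio_mem_nhds (hZball _ hz))
    filter_upwards [h1, h2] with w hw hwc h4
    have hwC : w ∈ C := ⟨h4, mem_closedBall.2 hwc.le⟩
    exact ⟨⟨w, hwC⟩, hw ⟨w, hwC⟩ rfl, rfl⟩
  have hharm : ∀ z ∈ Z, Harm T z (fA T z) := fun z hz =>
    fA_spec (hH z (hZball z hz).le (hZ4 z hz))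
  obtain ⟨δ₀, hδ₀⟩ := exists_Hm (f := fA T) hZc h.nhd (fun y => h.ne y)
    (fun z hz => (hharm z hz).four) (fun z hz => (hharm z hz).two)
    (fun z hz => (hharm z hz).sub) (fun z hz => by
      filter_upwards [(hharm z hz).forb h, hop z hz] with w hw hwZ hwn hsub
      exact hwn (hwZ (hw hsub))) (fun z hz => by
      filter_upwards [(hharm z hz).const h] with w hw hwZ
      exact hw _ (hharm w hwZ))
  refine ⟨Z, δ₀, h, hδ₀, hharm, fun z hz h4 => hreg z ?_ h4, fun z hz z' hz' =>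
    hU z z' (hZball z hz).le (hZball z' hz').le (hZ4 z hz) (hZ4 z' hz')⟩
  have := dist_triangle z v c
  linarith

namespace Ctx

/-- the exceptional points have four colours -/
theorem four (h : Ctx U T Z f δ₀ v) {z : ℂ} (hz : z ∈ Z) : (T z).ncard = 4 := (h.harm z hz).four

theorem le_three (h : Ctx U T Z f δ₀ v) {z : ℂ} (hz : dist z v ≤ 4) (hzZ : z ∉ Z) :
    (T z).ncard ≤ 3 := by
  by_contra hcon
  exact hzZ (h.reg z hz (by omega))

theorem le_four (h : Ctx U T Z f δ₀ v) {z : ℂ} (hz : dist z v ≤ 4) : (T z).ncard ≤ 4 := by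
  by_cases hzZ : z ∈ Z
  · rw [h.four hzZ]
  · exact (h.le_three hz hzZ).trans (by norm_num)

theorem rg (h : Ctx U T Z f δ₀ v) {x : ℂ} (hx : dist x v ≤ 3) : Rg T Z x := by
  intro u hu huZ
  refine h.le_three ?_ huZ
  have h1 : dist u x ≤ 1 := hu
  have := dist_triangle u x v
  linarith

end Ctx

/-- a colour of `T x` is not the only colour at a point of the circle about `x` -/
theorem irr_av (h : Irr U T) {x : ℂ} {a : Fin 6} (ha : a ∈ T x) : Av T x a := by
  intro y hy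
  by_contra hcon
  push Not at hcon
  have h1 : T y ⊆ {a} := fun b hb => hcon b hb
  exact h.mx.notMem' (h.mem_of_single h1) hy (h.sub x ha)

end Vale.Agent.P032.Carr
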