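import Vale.Agent.P032.S5.H483.IrrZ
import Vale.Agent.P032.S5.H830.StateX

/-!
# P032: two bases of a connected subset of `T_i ∩ T_j`
-/

open Set Filter Topology Metric

noncomputable section

namespace Vale.Agent.P032.Six

open Vale.Agent.P032.S5

variable {k : ℕ}

/-- the midpoint of two points at distance two is the only common point of the unit discs -/
theorem mid_of_dist {x u w : ℂ} (hxu : dist x u = 2) (hwx : dist w x ≤ 1) (hwu : dist w u ≤ 1) :
    2 * w = x + u := by
  have h1 := parallelogram_law_with_norm ℝ (x - w) (w - u)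
  have e1 : x - w + (w - u) = x - u := by ring
  have e2 : x - w - (w - u) = x + u - 2 * w := by ring
  rw [e1, e2] at h1
  have h2 : ‖x - u‖ = 2 := by rw [← dist_eq_norm]; exact hxu
  have h3 : ‖x - w‖ ≤ 1 := by rw [← dist_eq_norm, dist_comm]; exact hwx
  have h4 : ‖w - u‖ ≤ 1 := by rw [← dist_eq_norm]; exact hwu
  rw [h2] at h1
  have h5 : ‖x + u - 2 * w‖ * ‖x + u - 2 * w‖ ≤ 0 := by
    have h6 := norm_nonneg (x - w)
    have h7 := norm_nonneg (w - u)
    nlinarith
  have h6 : ‖x + u - 2 * w‖ = 0 := by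
    have h7 := norm_nonneg (x + u - 2 * w)
    nlinarith
  have h7 : x + u - 2 * w = 0 := norm_eq_zero.1 h6
  linear_combination -h7

/-- points of a connected set of colour `i` have distance at most one -/
theorem Irr.conn_le {U : Fin k → Set ℂ} {T : ℂ → Set (Fin k)} (h : Irr U T) {i : Fin k}
    {Q : Set ℂ} (hQ : IsPreconnected Q) (hQi : ∀ z ∈ Q, i ∈ T z) {x y w : ℂ} (hx : x ∈ Q)
    (hy : y ∈ Q) (hw : i ∈ T w) (hyw : dist y w < 1) : dist x w ≤ 1 := by
  by_contra hcon
  push Not at hcon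
  exact h.mx.wlemma hQ (fun z hz => h.sub z (hQi z hz)) hy hx hyw hcon (h.sub w hw)

/-- **Near.** A three-coloured point `y` and a point `x` of a connected subset of `T_i ∩ T_j` at
distance one: no face of complementary type in the disc about `y` -/
theorem Irr.near_aux {U : Fin 6 → Set ℂ} {T : ℂ → Set (Fin 6)} (h : Irr U T) {i j : Fin 6}
    {Q : Set ℂ} (hQ : IsPreconnected Q) (hQi : ∀ z ∈ Q, i ∈ T z) (hQj : ∀ z ∈ Q, j ∈ T z)
    {x y u : ℂ} (hx : x ∈ Q) (hy : y ∈ Q) (hxy : dist x y = 1) {l : Fin 6}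
    (hTy : T y ⊆ {i, j, l}) (hxu : 2 ≤ dist x u) (huy : dist u y ≤ 1) (hl : l ∈ T u) : False := by
  have hxu2 : dist x u = 2 := by
    have h1 := dist_triangle x y u
    rw [dist_comm y u] at h1
    linarith
  have hyu : dist y u = 1 := by
    have h1 := dist_triangle x y u
    rw [dist_comm u y] at huy
    linarith
  -- near `y`, outside the disc about `x`, only `l`
  have hnear : ∀ᶠ w in 𝓝 y, 1 < dist w x → w ∈ U l := by
    have hd : ∀ᶠ w in 𝓝 y, dist y w < 1 := by
      have hc : Continuous fun w => dist y w := by fun_prop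
      refine hc.continuousAt.eventually (Iio_mem_nhds ?_)
      show dist y y < 1
      rw [dist_self]
      exact one_pos
    filter_upwards [h.nhd y, hd] with w hw hdw hwx
    refine h.mem_of_single fun m hm => ?_
    rcases hTy (hw hm) with rfl | rfl | hml
    · have := h.conn_le hQ hQi hx hy hm hdw
      rw [dist_comm] at this
      linarith
    · have := h.conn_le hQ hQj hx hy hm hdw
      rw [dist_comm] at this
      linarith
    · exact hml
  -- a point of the circle about `u` near `y`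
  obtain ⟨θ, hθ⟩ := exists_cis (u := y - u) (by rw [← dist_eq_norm]; exact hyu)
  have hyθ : y = u + cis θ := by rw [← hθ]; ring
  have hc : Tendsto (fun t : ℝ => u + cis (θ + t)) (𝓝 0) (𝓝 y) := by
    have h1 : Continuous fun t : ℝ => u + cis (θ + t) :=
      continuous_const.add (continuous_cis.comp (continuous_const.add continuous_id))
    have h2 := h1.tendsto 0
    rwa [add_zero, ← hyθ] at h2
  have h3 := hc.eventually hnear
  rw [Metric.eventually_nhds_iff] at h3
  obtain ⟨ε, hε, hP⟩ := h3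
  set t := min (ε / 2) 1 with ht
  have ht0 : 0 < t := lt_min (by linarith) one_pos
  have htε : t < ε := lt_of_le_of_lt (min_le_left _ _) (by linarith)
  have ht1 : t ≤ 1 := min_le_right _ _
  have hw : dist (u + cis (θ + t)) u = 1 := by
    rw [dist_eq_norm, add_sub_cancel_left, norm_cis]
  have hwy : u + cis (θ + t) ≠ y := by
    intro he
    rw [hyθ] at he
    have h4 : cis (θ + t) = cis θ := add_left_cancel he
    have h5 : cis (θ + t) = cis θ * cis t := by
      unfold cis
      rw [← Complex.exp_add]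
      congr 1
      push_cast
      ring
    have h6 : cis θ ≠ 0 := by
      intro h0
      have := norm_cis θ
      rw [h0, norm_zero] at this
      exact zero_ne_one this
    have h7 : cis t = 1 := by
      rw [h4] at h5
      exact (mul_right_eq_self₀.1 h5.symm).resolve_right h6
    have h8 : (cis t).re = Real.cos t := by
      unfold cis
      rw [Complex.exp_ofReal_mul_I_re]
    rw [h7, Complex.one_re] at h8
    have h9 : Real.cos t < 1 := by
      rw [← Real.cos_zero]
      refine Real.cos_lt_cos_of_nonneg_of_le_pi le_rfl ?_ ht0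
      have := Real.pi_gt_three
      linarith
    linarith
  have hwx : 1 < dist (u + cis (θ + t)) x := by
    by_contra hcon
    push Not at hcon
    have h4 := mid_of_dist hxu2 hcon hw.le
    have h5 := mid_of_dist hxu2 (w := y) (by rw [dist_comm]; exact hxy.le) hyu.le
    apply hwy
    have h6 : 2 * (u + cis (θ + t)) = 2 * y := by rw [h4, h5]
    exact mul_left_cancel₀ two_ne_zero h6
  have h4 := hP (y := t) (by rw [Real.dist_eq, sub_zero, abs_of_pos ht0]; exact htε) hwx
  exact h.mx.notMem' h4 hw (h.sub u hl)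

/-- the third colour -/
theorem third_of {S : Set (Fin 6)} (hS : S.ncard = 3) {i j : Fin 6} (hij : i ≠ j) (hi : i ∈ S)
    (hj : j ∈ S) : ∃ l, l ≠ i ∧ l ≠ j ∧ S = {i, j, l} := by
  have h1 : ∃ l ∈ S, l ∉ ({i, j} : Set (Fin 6)) := by
    by_contra hcon
    push Not at hcon
    have h2 := Set.ncard_le_ncard (show S ⊆ {i, j} from hcon) (Set.toFinite _)
    rw [hS, Set.ncard_pair hij] at h2
    omega
  obtain ⟨l, hl, hlij⟩ := h1
  simp only [Set.mem_insert_iff, Set.mem_singleton_iff, not_or] at hlij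
  refine ⟨l, hlij.1, hlij.2, ?_⟩
  symm
  refine Set.eq_of_subset_of_ncard_le ?_ ?_ (Set.toFinite _)
  · rintro m (rfl | rfl | rfl) <;> assumption
  · rw [hS, Set.ncard_eq_three.2 ⟨i, j, l, hij, Ne.symm hlij.1, Ne.symm hlij.2, rfl⟩]

/-- **Near**, for faces; `y` has at most three colours -/
theorem Irr.near_one {U : Fin 6 → Set ℂ} {T : ℂ → Set (Fin 6)} (h : Irr U T) {p : Finset (Fin 6)}
    (hp : p.card = 2) {Q : Set ℂ} (hQ : IsPreconnected Q) (hQp : ∀ z ∈ Q, ∀ i ∈ p, i ∈ T z)
    {x y : ℂ} (hx : x ∈ Q) (hy : y ∈ Q) {S S' : Set (Fin 6)} (hS : Face T x S)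
    (hS' : Face T y S') (hpS : ∀ i ∈ p, i ∈ S) (hpS' : ∀ i ∈ p, i ∈ S') (hne : S ≠ S')
    (h3 : (T y).ncard ≤ 3) (hcomp : ∀ u, dist u y ≤ 1 → Face T u Sᶜ → 2 ≤ dist x u) :
    ∀ u, dist u y ≤ 1 → ¬ Face T u Sᶜ := by
  intro u hu hface
  obtain ⟨i, j, hij, rfl⟩ := Finset.card_eq_two.1 hp
  have hi : i ∈ ({i, j} : Finset (Fin 6)) := by simp
  have hj : j ∈ ({i, j} : Finset (Fin 6)) := by simp
  have h2 := hcomp u hu hface
  obtain ⟨l, hli, hlj, hSl⟩ := third_of hS'.1 hij (hpS' i hi) (hpS' j hj)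
  have hTy : T y = S' := (Set.eq_of_subset_of_ncard_le hS'.2.1 (by rw [hS'.1]; exact h3)
    (Set.toFinite _)).symm
  have hl : l ∈ T u := by
    refine hface.2.1 fun hlS => hne ?_
    have hsub : S' ⊆ S := by
      rw [hSl]
      rintro m (rfl | rfl | rfl)
      · exact hpS _ hi
      · exact hpS _ hj
      · exact hlS
    exact (Set.eq_of_subset_of_ncard_le hsub (by rw [hS.1, hS'.1]) (Set.toFinite _)).symm
  have hxy : dist x y ≤ 1 := h.conn_le hQ (fun z hz => hQp z hz i hi) hx hy (hQp y hy i hi) (by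
    rw [dist_self]; exact one_pos)
  have hxy1 : dist x y = 1 := by
    have h4 := dist_triangle x y u
    rw [dist_comm y u] at h4
    linarith
  exact h.near_aux hQ (fun z hz => hQp z hz i hi) (fun z hz => hQp z hz j hj) hx hy hxy1
    (l := l) (by rw [hTy, hSl]) h2 hu hl

/-- **Near**, the hypothesis of the final assembly -/
theorem Irr.near {U : Fin 6 → Set ℂ} {T : ℂ → Set (Fin 6)} (h : Irr U T) {p : Finset (Fin 6)}
    (hp : p.card = 2) {Q : Set ℂ} (hQ : IsPreconnected Q) (hQp : ∀ z ∈ Q, ∀ i ∈ p, i ∈ T z)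
    {x y : ℂ} (hx : x ∈ Q) (hy : y ∈ Q) {S S' : Set (Fin 6)} (hS : Face T x S)
    (hS' : Face T y S') (hpS : ∀ i ∈ p, i ∈ S) (hpS' : ∀ i ∈ p, i ∈ S') (hne : S ≠ S')
    (hcomp : ∀ z ∈ Q, ∀ s, Face T z s → ∀ w ∈ Q, ∀ u, dist u w ≤ 1 → Face T u sᶜ → 2 ≤ dist z u)
    (h1 : dist x y = 1 → (T x).ncard ≤ 3 ∨ (T y).ncard ≤ 3) :
    (∀ u, dist u x ≤ 1 → ¬ Face T u S'ᶜ) ∨ (∀ u, dist u y ≤ 1 → ¬ Face T u Sᶜ) := by
  obtain ⟨i, hi⟩ := Finset.card_pos.1 (by rw [hp]; norm_num : 0 < p.card)
  have hxy : dist x y ≤ 1 := h.conn_le hQ (fun z hz => hQp z hz i hi) hx hy (hQp y hy i hi) (by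
    rw [dist_self]; exact one_pos)
  rcases hxy.lt_or_eq with hlt | heq
  · left
    intro u hu hface
    have h2 := hcomp y hy S' hS' x hx u hu hface
    have h3 := dist_triangle y x u
    rw [dist_comm y x, dist_comm x u] at h3
    linarith
  · rcases h1 heq with h3 | h3
    · left
      exact h.near_one hp hQ hQp hy hx hS' hS hpS' hpS hne.symm h3
        (fun u hu hf => hcomp y hy S' hS' x hx u hu hf)
    · right
      exact h.near_one hp hQ hQp hx hy hS hS' hpS hpS' hne h3
        (fun u hu hf => hcomp x hx S hS y hy u hu hf)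

end Vale.Agent.P032.Six
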