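import Vale.Agent.P032.S5.H286.Near
import Vale.Agent.P032.S5.H585.Pinch

/-!
# P032: two bases of a connected subset of `T_i ∩ T_j`, unit pairs of harmless points allowed
-/

open Set Filter Topology Metric

noncomputable section

namespace Vale.Agent.P032.Six

open Vale.Agent.P032.S5

/-- a point at distance one from `u` other than the midpoint is outside the disc about `y` -/
theorem far_of_mid {x y u w : ℂ} (hyu : dist y u = 2) (hyx : dist y x = 1) (hxu : dist x u = 1)
    (hw : dist w u = 1) (hwx : w ≠ x) : 1 < dist w y := by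
  by_contra hcon
  push Not at hcon
  have h4 := mid_of_dist hyu hcon hw.le
  have h5 := mid_of_dist hyu (w := x) (by rw [dist_comm]; exact hyx.le) hxu.le
  apply hwx
  have h6 : 2 * w = 2 * x := by rw [h4, h5]
  exact mul_left_cancel₀ two_ne_zero h6

/-- an open arc of the circle contains points different from two given points -/
theorem arc_avoid {x p : ℂ} (hp : dist p x = 1) {P : ℂ → Prop}
    (hJ : ∀ᶠ q in 𝓝[sphere x 1] p, P q) (a b : ℂ) :
    ∃ q, dist q x = 1 ∧ P q ∧ q ≠ a ∧ q ≠ b := by
  obtain ⟨θ, hθ⟩ := exists_cis (u := p - x) (by rw [← dist_eq_norm]; exact hp)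
  have hpθ : p = x + cis θ := by rw [← hθ]; ring
  have hc : Tendsto (fun t : ℝ => x + cis (θ + t)) (𝓝 0) (𝓝[sphere x 1] p) := by
    refine tendsto_nhdsWithin_iff.2 ⟨?_, Eventually.of_forall fun t => ?_⟩
    · have h1 : Continuous fun t : ℝ => x + cis (θ + t) :=
        continuous_const.add (continuous_cis.comp (continuous_const.add continuous_id))
      have h2 := h1.tendsto 0
      rwa [add_zero, ← hpθ] at h2
    · rw [mem_sphere, dist_eq_norm, add_sub_cancel_left, norm_cis]
  have h3 := hc.eventually hJ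
  rw [Metric.eventually_nhds_iff] at h3
  obtain ⟨ε, hε, hP⟩ := h3
  set t := min (ε / 4) (1 / 2) with ht
  have ht0 : 0 < t := lt_min (by linarith) (by norm_num)
  have htε : t ≤ ε / 4 := min_le_left _ _
  have ht1 : t ≤ 1 / 2 := min_le_right _ _
  -- the three points `θ`, `θ + t`, `θ + 2 t` are distinct
  have hinj : ∀ s s' : ℝ, 0 ≤ s → s < s' → s' ≤ 2 * t → x + cis (θ + s) ≠ x + cis (θ + s') := by
    intro s s' hs hss hs' he
    have h4 : cis (θ + s) = cis (θ + s') := add_left_cancel he
    have h5 : cis (θ + s') = cis (θ + s) * cis (s' - s) := by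
      unfold cis
      rw [← Complex.exp_add]
      congr 1
      push_cast
      ring
    have h6 : cis (θ + s) ≠ 0 := by
      intro h0
      have := norm_cis (θ + s)
      rw [h0, norm_zero] at this
      exact zero_ne_one this
    have h7 : cis (s' - s) = 1 := by
      rw [← h4] at h5
      exact (mul_right_eq_self₀.1 h5.symm).resolve_right h6
    have h8 : (cis (s' - s)).re = Real.cos (s' - s) := by
      unfold cis
      rw [Complex.exp_ofReal_mul_I_re]
    rw [h7, Complex.one_re] at h8
    have h9 : Real.cos (s' - s) < 1 := by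
      rw [← Real.cos_zero]
      refine Real.cos_lt_cos_of_nonneg_of_le_pi le_rfl ?_ (by linarith)
      have := Real.pi_gt_three
      linarith
    linarith
  have hon : ∀ s : ℝ, dist (x + cis (θ + s)) x = 1 := fun s => by
    rw [dist_eq_norm, add_sub_cancel_left, norm_cis]
  have hPs : ∀ s : ℝ, 0 ≤ s → s ≤ 2 * t → P (x + cis (θ + s)) := fun s hs hs' =>
    hP (by rw [Real.dist_eq, sub_zero, abs_of_nonneg hs]; linarith)
  have n01 := hinj 0 t le_rfl ht0 (by linarith)
  have n02 := hinj 0 (2 * t) le_rfl (by linarith) le_rfl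
  have n12 := hinj t (2 * t) ht0.le (by linarith) le_rfl
  by_cases ha : x + cis (θ + 0) = a ∨ x + cis (θ + 0) = b
  · by_cases hb : x + cis (θ + t) = a ∨ x + cis (θ + t) = b
    · refine ⟨x + cis (θ + 2 * t), hon _, hPs _ (by linarith) le_rfl, ?_, ?_⟩
      · rintro h
        rcases ha with ha | ha
        · exact n02 (ha.trans h.symm)
        · rcases hb with hb | hb
          · exact n12 (hb.trans h.symm)
          · exact n01 (ha.trans hb.symm)
      · rintro h
        rcases ha with ha | ha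
        · rcases hb with hb | hb
          · exact n01 (ha.trans hb.symm)
          · exact n12 (hb.trans h.symm)
        · exact n02 (ha.trans h.symm)
    · push Not at hb
      exact ⟨_, hon _, hPs _ ht0.le (by linarith), hb.1, hb.2⟩
  · push Not at ha
    exact ⟨_, hon _, hPs _ le_rfl (by linarith), ha.1, ha.2⟩

/-- **Near**, a harmless four-coloured point `x` -/
theorem Irr.near_Z {U : Fin 6 → Set ℂ} {T : ℂ → Set (Fin 6)} (h : Irr U T) {p : Finset (Fin 6)}
    (hp : p.card = 2) {Q : Set ℂ} (hQ : IsPreconnected Q) (hQp : ∀ z ∈ Q, ∀ i ∈ p, i ∈ T z)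
    {x y : ℂ} (hx : x ∈ Q) (hy : y ∈ Q) {S S' : Set (Fin 6)} (hS : Face T x S)
    (hS' : Face T y S') (hpS : ∀ i ∈ p, i ∈ S) (hpS' : ∀ i ∈ p, i ∈ S') (hne : S ≠ S')
    {A : Set (Fin 6)} (hA : Harm T x A) (hAS : ¬ A ⊆ S)
    (hcomp : ∀ u, dist u x ≤ 1 → Face T u S'ᶜ → 2 ≤ dist y u) :
    ∀ u, dist u x ≤ 1 → ¬ Face T u S'ᶜ := by
  intro u hu hface
  obtain ⟨i, j, hij, rfl⟩ := Finset.card_eq_two.1 hp
  have hi : i ∈ ({i, j} : Finset (Fin 6)) := by simp
  have hj : j ∈ ({i, j} : Finset (Fin 6)) := by simp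
  have h2 := hcomp u hu hface
  -- the fourth colour `m` of `x` is in `A`
  obtain ⟨m, hmA, hmS⟩ := Set.not_subset.1 hAS
  obtain ⟨l, hli, hlj, hSl⟩ := third_of hS.1 hij (hpS i hi) (hpS j hj)
  have hl : l ∈ T u := by
    refine hface.2.1 fun hlS => hne ?_
    have hsub : S ⊆ S' := by
      rw [hSl]
      rintro n (rfl | rfl | rfl)
      · exact hpS' _ hi
      · exact hpS' _ hj
      · exact hlS
    exact Set.eq_of_subset_of_ncard_le hsub (by rw [hS.1, hS'.1]) (Set.toFinite _)
  have hTx : T x ⊆ {i, j, l, m} := by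
    have h5 : insert m S ⊆ T x := by
      rintro n (rfl | hn)
      · exact hA.sub hmA
      · exact hS.2.1 hn
    have h6 : insert m S = T x := by
      refine Set.eq_of_subset_of_ncard_le h5 ?_ (Set.toFinite _)
      rw [Set.ncard_insert_of_notMem hmS (Set.toFinite _), hS.1, hA.card]
    rw [← h6, hSl]
    rintro n (rfl | rfl | rfl | rfl) <;> simp
  have hyx : dist y x ≤ 1 := h.conn_le hQ (fun z hz => hQp z hz i hi) hy hx (hQp x hx i hi) (by
    rw [dist_self]; exact one_pos)
  have hyu2 : dist y u = 2 := by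
    have h4 := dist_triangle y x u
    rw [dist_comm x u] at h4
    linarith
  have hyx1 : dist y x = 1 := by
    have h4 := dist_triangle y x u
    rw [dist_comm x u] at h4
    linarith
  have hxu : dist x u = 1 := by
    have h4 := dist_triangle y x u
    rw [dist_comm u x] at hu
    linarith
  -- on the circle about `u` near `x` the colour `m` is present
  have hline : ∀ᶠ w in 𝓝[sphere u 1] x, m ∈ T w := by
    have hd : ∀ᶠ w in 𝓝 x, dist x w < 1 := by
      have hc : Continuous fun w => dist x w := by fun_prop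
      refine hc.continuousAt.eventually (Iio_mem_nhds ?_)
      show dist x x < 1
      rw [dist_self]
      exact one_pos
    filter_upwards [mem_nhdsWithin_of_mem_nhds (h.nhd x), mem_nhdsWithin_of_mem_nhds hd,
      self_mem_nhdsWithin] with w hw hdw hwu
    have hwu : dist w u = 1 := hwu
    by_cases hwx : w = x
    · rw [hwx]; exact hA.sub hmA
    have hfar := far_of_mid hyu2 hyx1 hxu hwu hwx
    have hno : ∀ n ∈ ({i, j} : Finset (Fin 6)), n ∉ T w := fun n hn hnw => by
      have := h.conn_le hQ (fun z hz => hQp z hz n hn) hy hx hnw hdw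
      rw [dist_comm] at this
      linarith
    by_contra hmw
    have h5 : T w ⊆ {l} := by
      intro n hn
      rcases hTx (hw hn) with rfl | rfl | rfl | rfl
      · exact absurd hn (hno _ hi)
      · exact absurd hn (hno _ hj)
      · rfl
      · exact absurd hn hmw
    exact h.mx.notMem' (h.mem_of_single h5) hwu (h.sub u hl)
  -- but `x` has a whole arc of partners of colour `m`
  obtain ⟨q, hq, hev⟩ := hA.arc
  obtain ⟨q', hq', hTq', h5, h6⟩ := arc_avoid hq hev u (2 * x - u)
  rcases h.mx.partner_line hxu (hline.mono fun w hw => h.sub w hw) (v := q')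
    (by rw [dist_comm]; exact hq') (h.sub q' (by rw [hTq']; exact hmA)) with h7 | h7
  · exact h5 h7
  · exact h6 (by linear_combination h7)

/-- **Near**, unit pairs of harmless points allowed -/
theorem Irr.near' {U : Fin 6 → Set ℂ} {T : ℂ → Set (Fin 6)} (h : Irr U T) {p : Finset (Fin 6)}
    (hp : p.card = 2) {Q : Set ℂ} (hQ : IsPreconnected Q) (hQp : ∀ z ∈ Q, ∀ i ∈ p, i ∈ T z)
    {x y : ℂ} (hx : x ∈ Q) (hy : y ∈ Q) {S S' : Set (Fin 6)} (hS : Face T x S)
    (hS' : Face T y S') (hpS : ∀ i ∈ p, i ∈ S) (hpS' : ∀ i ∈ p, i ∈ S') (hne : S ≠ S')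
    (hcomp : ∀ z ∈ Q, ∀ s, Face T z s → ∀ w ∈ Q, ∀ u, dist u w ≤ 1 → Face T u sᶜ → 2 ≤ dist z u)
    (h1 : (T x).ncard ≤ 3 ∨ ∃ A, Harm T x A ∧ ¬ A ⊆ S) :
    ∀ u, dist u x ≤ 1 → ¬ Face T u S'ᶜ := by
  rcases h1 with h3 | ⟨A, hA, hAS⟩
  · exact h.near_one hp hQ hQp hy hx hS' hS hpS' hpS hne.symm h3
      (fun u hu hf => hcomp y hy S' hS' x hx u hu hf)
  · exact h.near_Z hp hQ hQp hx hy hS hS' hpS hpS' hne hA hAS
      (fun u hu hf => hcomp y hy S' hS' x hx u hu hf)

end Vale.Agent.P032.Six
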