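import Vale.Agent.P032.S5.H483.IrrZ

/-!
# P032: half branches of a circle at two harmless points at distance one

`Irr.half_a` : `x`, `z`, `p` equilateral, `T z ⊆ {a, b, c, g}`, `g ∈ T x`. If the colour `c` lives on
one half branch of the circle about `x` at `p`, then `a` lives on the same half branch at `z`.
-/

open Set Filter Topology Metric

noncomputable section

namespace Vale.Agent.P032.Six

variable {k : ℕ} {U : Fin k → Set ℂ} {T : ℂ → Set (Fin k)}

theorem cis_re' (t : ℝ) : (cis t).re = Real.cos t := by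
  unfold cis
  rw [Complex.exp_ofReal_mul_I_re]

theorem cis_im' (t : ℝ) : (cis t).im = Real.sin t := by
  unfold cis
  rw [Complex.exp_ofReal_mul_I_im]

theorem side_trig {t : ℝ} (ht : t ∈ Ioo (0 : ℝ) 1) : 0 < Real.sin t ∧
    1 - Real.cos t < Real.sin t ∧ Real.cos t < 1 := by
  have hpi := Real.pi_gt_three
  have h1 : 0 < Real.sin t := Real.sin_pos_of_pos_of_lt_pi ht.1 (by linarith [ht.2])
  have h2 : 0 < Real.cos t := Real.cos_pos_of_mem_Ioo ⟨by linarith [ht.1], by linarith [ht.2]⟩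
  have h3 := Real.sin_sq_add_cos_sq t
  have h4 := mul_pos h1 h2
  refine ⟨h1, ?_, ?_⟩
  · by_contra hcon
    push Not at hcon
    have h5 : 0 ≤ (1 - (Real.sin t + Real.cos t)) * (1 + (Real.sin t + Real.cos t)) :=
      mul_nonneg (by linarith) (by linarith)
    have h6 : (1 - (Real.sin t + Real.cos t)) * (1 + (Real.sin t + Real.cos t)) =
      1 - (Real.sin t ^ 2 + Real.cos t ^ 2) - 2 * (Real.sin t * Real.cos t) := by ring
    rw [h6, h3] at h5
    linarith
  · by_contra hcon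
    push Not at hcon
    have h5 : 0 < Real.sin t ^ 2 := by positivity
    have h6 : 1 ≤ Real.cos t ^ 2 := by
      have := mul_le_mul hcon hcon zero_le_one (by linarith)
      rw [one_mul] at this
      rw [sq]
      exact this
    linarith

theorem side_lt {d : ℝ} (hd : 0 ≤ d) (h : d ^ 2 < 1) : d < 1 := by
  by_contra h2
  push Not at h2
  have := mul_le_mul h2 h2 zero_le_one hd
  rw [one_mul] at this
  rw [sq] at h
  linarith

theorem side_gt {d : ℝ} (hd : 0 ≤ d) (h : 1 < d ^ 2) : 1 < d := by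
  by_contra h2
  push Not at h2
  have := mul_le_mul h2 h2 hd zero_le_one
  rw [one_mul] at this
  rw [sq] at h
  linarith

/-- moving along the circle about `x` at two points at distance one -/
theorem side_geo {x z p : ℂ} (hzx : dist z x = 1) (hpx : dist p x = 1) (hzp : dist z p = 1)
    {sg : ℝ} (hsg : sg = 1 ∨ sg = -1) : ∃ κ : ℝ, (κ = 1 ∨ κ = -1) ∧ ∀ t ∈ Ioo (0 : ℝ) 1,
      0 < κ * (1 - dist (x + (z - x) * cis (sg * t)) p) ∧
      κ * (1 - dist (x + (z - x) * cis (sg * (-t))) p) < 0 ∧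
      0 < κ * (dist (x + (p - x) * cis (sg * t)) z - 1) := by
  have hsq : ∀ w : ℂ, ‖w‖ ^ 2 = w.re ^ 2 + w.im ^ 2 := fun w => by
    rw [Complex.sq_norm, Complex.normSq_apply]; ring
  rw [dist_eq_norm] at hzx hpx hzp
  have e1 := hsq (z - x)
  have e2 := hsq (p - x)
  have e3 := hsq (z - p)
  rw [hzx] at e1
  rw [hpx] at e2
  rw [hzp] at e3
  simp only [Complex.sub_re, Complex.sub_im] at e1 e2 e3
  set u1 := z.re - x.re with hu1
  set u2 := z.im - x.im with hu2
  set v1 := p.re - x.re with hv1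
  set v2 := p.im - x.im with hv2
  have hc : u1 * v1 + u2 * v2 = 1 / 2 := by
    have : z.re - p.re = u1 - v1 := by rw [hu1, hv1]; ring
    rw [this] at e3
    have : z.im - p.im = u2 - v2 := by rw [hu2, hv2]; ring
    rw [this] at e3
    nlinarith
  set r := sg * (u2 * v1 - u1 * v2) with hr
  have hsg2 : sg ^ 2 = 1 := by rcases hsg with rfl | rfl <;> norm_num
  have hr2 : r ^ 2 = 3 / 4 := by
    have h1 : (u2 * v1 - u1 * v2) ^ 2 + (u1 * v1 + u2 * v2) ^ 2 = 1 := by
      have : (u2 * v1 - u1 * v2) ^ 2 + (u1 * v1 + u2 * v2) ^ 2 =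
        (u1 ^ 2 + u2 ^ 2) * (v1 ^ 2 + v2 ^ 2) := by ring
      rw [this, ← e1, ← e2]; norm_num
    rw [hc] at h1
    rw [hr, mul_pow, hsg2]
    linarith
  have hcos : ∀ t, Real.cos (sg * t) = Real.cos t := by
    intro t
    rcases hsg with rfl | rfl
    · rw [one_mul]
    · rw [neg_one_mul, Real.cos_neg]
  have hsin : ∀ t, Real.sin (sg * t) = sg * Real.sin t := by
    intro t
    rcases hsg with rfl | rfl
    · rw [one_mul, one_mul]
    · rw [neg_one_mul, neg_one_mul, Real.sin_neg]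
  have d1 : ∀ t, dist (x + (z - x) * cis (sg * t)) p ^ 2 = 2 - Real.cos t + 2 * r * Real.sin t := by
    intro t
    rw [dist_eq_norm, hsq]
    simp only [Complex.sub_re, Complex.sub_im, Complex.add_re, Complex.add_im, Complex.mul_re,
      Complex.mul_im, cis_re', cis_im', hcos, hsin]
    rw [← hu1, ← hu2]
    have h1 : x.re = p.re - v1 := by rw [hv1]; ring
    have h2 : x.im = p.im - v2 := by rw [hv2]; ring
    rw [h1, h2, hr]
    have hs := Real.sin_sq_add_cos_sq t
    have e : (p.re - v1 + (u1 * Real.cos t - u2 * (sg * Real.sin t)) - p.re) ^ 2 +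
      (p.im - v2 + (u1 * (sg * Real.sin t) + u2 * Real.cos t) - p.im) ^ 2 =
      (v1 ^ 2 + v2 ^ 2) + (u1 ^ 2 + u2 ^ 2) * (Real.cos t ^ 2 + sg ^ 2 * Real.sin t ^ 2) -
      2 * (u1 * v1 + u2 * v2) * Real.cos t + 2 * (sg * (u2 * v1 - u1 * v2)) * Real.sin t := by ring
    rw [e, ← e1, ← e2, hc, hsg2]
    linear_combination hs
  have d2 : ∀ t, dist (x + (p - x) * cis (sg * t)) z ^ 2 = 2 - Real.cos t - 2 * r * Real.sin t := by
    intro t
    rw [dist_eq_norm, hsq]
    simp only [Complex.sub_re, Complex.sub_im, Complex.add_re, Complex.add_im, Complex.mul_re,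
      Complex.mul_im, cis_re', cis_im', hcos, hsin]
    rw [← hv1, ← hv2]
    have h1 : x.re = z.re - u1 := by rw [hu1]; ring
    have h2 : x.im = z.im - u2 := by rw [hu2]; ring
    rw [h1, h2, hr]
    have hs := Real.sin_sq_add_cos_sq t
    have e : (z.re - u1 + (v1 * Real.cos t - v2 * (sg * Real.sin t)) - z.re) ^ 2 +
      (z.im - u2 + (v1 * (sg * Real.sin t) + v2 * Real.cos t) - z.im) ^ 2 =
      (u1 ^ 2 + u2 ^ 2) + (v1 ^ 2 + v2 ^ 2) * (Real.cos t ^ 2 + sg ^ 2 * Real.sin t ^ 2) -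
      2 * (u1 * v1 + u2 * v2) * Real.cos t - 2 * (sg * (u2 * v1 - u1 * v2)) * Real.sin t := by ring
    rw [e, ← e1, ← e2, hc, hsg2]
    linear_combination hs
  have F : ∀ t ∈ Ioo (0 : ℝ) 1, 0 < Real.sin t ∧ 1 - Real.cos t < Real.sin t ∧
      Real.cos t < 1 := fun t ht => side_trig ht
  clear_value r u1 u2 v1 v2
  rcases lt_or_ge r 0 with hr0 | hr0
  · have hr1 : r < -(1 / 2) := by nlinarith
    refine ⟨1, Or.inl rfl, fun t ht => ?_⟩
    obtain ⟨h1, h2, h3⟩ := F t ht
    have h5 : 0 < (-(1 / 2) - r) * Real.sin t := mul_pos (by linarith) h1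
    have q1 : dist (x + (z - x) * cis (sg * t)) p < 1 := side_lt dist_nonneg (by
      rw [d1]; linarith)
    have q2 : 1 < dist (x + (z - x) * cis (sg * (-t))) p := side_gt dist_nonneg (by
      rw [d1, Real.cos_neg, Real.sin_neg]; linarith)
    have q3 : 1 < dist (x + (p - x) * cis (sg * t)) z := side_gt dist_nonneg (by
      rw [d2]; linarith)
    exact ⟨by linarith, by linarith, by linarith⟩
  · have hr1 : 1 / 2 < r := by nlinarith
    refine ⟨-1, Or.inr rfl, fun t ht => ?_⟩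
    obtain ⟨h1, h2, h3⟩ := F t ht
    have h5 : 0 < (r - 1 / 2) * Real.sin t := mul_pos (by linarith) h1
    have q1 : 1 < dist (x + (z - x) * cis (sg * t)) p := side_gt dist_nonneg (by
      rw [d1]; linarith)
    have q2 : dist (x + (z - x) * cis (sg * (-t))) p < 1 := side_lt dist_nonneg (by
      rw [d1, Real.cos_neg, Real.sin_neg]; linarith)
    have q3 : dist (x + (p - x) * cis (sg * t)) z < 1 := side_lt dist_nonneg (by
      rw [d2]; linarith)
    exact ⟨by linarith, by linarith, by linarith⟩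

/-- **Half branches.** -/
theorem Irr.half_a (h : Irr U T) {x z p : ℂ} (hzx : dist z x = 1) (hpx : dist p x = 1)
    (hzp : dist z p = 1) {a b c g : Fin k} (hg : g ∈ T x) (hTz : T z ⊆ {a, b, c, g})
    (hab : ∀ᶠ w in 𝓝 z, a ∈ T w → b ∈ T w → g ∈ T w)
    (hp1 : ∀ᶠ q in 𝓝[sphere p 1] z, g ∉ T q → a ∈ T q) {sg : ℝ} (hsg : sg = 1 ∨ sg = -1)
    (hcp : c ∈ T p) (hB : ∀ᶠ t in 𝓝[>] (0 : ℝ), c ∈ T (x + (p - x) * cis (sg * t))) :
    ∀ᶠ t in 𝓝[>] (0 : ℝ), a ∈ T (x + (z - x) * cis (sg * t)) := by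
  obtain ⟨κ, hκ, hgeo⟩ := side_geo hzx hpx hzp hsg
  have cis0 : cis 0 = 1 := by simp [cis]
  -- step 1
  have h1 : ∀ᶠ w in 𝓝 z, 0 < κ * (1 - dist w p) → c ∉ T w := by
    obtain ⟨ε, hε, hεB⟩ := mem_nhdsGT_iff_exists_Ioo_subset.1 hB
    have hε : 0 < ε := hε
    set t0 := min (ε / 2) (1 / 2) with ht0
    have ht0pos : 0 < t0 := lt_min (by linarith) (by norm_num)
    have ht0ε : t0 < ε := lt_of_le_of_lt (min_le_left _ _) (by linarith)
    have ht01 : t0 < 1 := lt_of_le_of_lt (min_le_right _ _) (by norm_num)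
    have hg0 := (hgeo t0 ⟨ht0pos, ht01⟩).2.2
    set y0 := x + (p - x) * cis (sg * t0) with hy0
    have hcont : Continuous fun w : ℂ => κ * (dist y0 w - 1) := by fun_prop
    have hev : ∀ᶠ w in 𝓝 z, 0 < κ * (dist y0 w - 1) :=
      hcont.continuousAt.eventually (Ioi_mem_nhds hg0)
    let γ : ℝ → ℂ := fun t => x + (p - x) * cis (sg * t)
    have hγ : Continuous γ := by
      have := continuous_cis
      fun_prop
    have hQ : IsPreconnected (γ '' Icc 0 t0) := isPreconnected_Icc.image _ hγ.continuousOn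
    have hQc : γ '' Icc 0 t0 ⊆ closure (U c) := by
      rintro _ ⟨t, ht, rfl⟩
      rcases ht.1.eq_or_lt with h0 | h0
      · have : γ t = p := by
          simp only [γ]
          rw [← h0, mul_zero, cis0]
          ring
        rw [this]
        exact h.sub p hcp
      · exact h.sub _ (hεB ⟨h0, ht.2.trans_lt ht0ε⟩)
    have hpQ : p ∈ γ '' Icc 0 t0 := ⟨0, ⟨le_rfl, ht0pos.le⟩, by
      simp only [γ]
      rw [mul_zero, cis0]
      ring⟩
    have hyQ : y0 ∈ γ '' Icc 0 t0 := ⟨t0, ⟨ht0pos.le, le_rfl⟩, rfl⟩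
    filter_upwards [hev] with w hw hwp hcw
    rcases hκ with rfl | rfl
    · exact h.mx.wlemma hQ hQc hpQ hyQ (z := w) (by rw [dist_comm]; linarith) (by linarith)
        (h.sub w hcw)
    · exact h.mx.wlemma hQ hQc hyQ hpQ (z := w) (by linarith) (by rw [dist_comm]; linarith)
        (h.sub w hcw)
  -- a good neighbourhood of `z`
  have hp1' : ∀ᶠ q in 𝓝 z, dist q p = 1 → g ∉ T q → a ∈ T q := by
    rw [eventually_nhdsWithin_iff] at hp1
    exact hp1
  have hV : ∀ᶠ q in 𝓝 z, (T q ⊆ T z) ∧ (a ∈ T q → b ∈ T q → g ∈ T q) ∧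
      (dist q p = 1 → g ∉ T q → a ∈ T q) ∧ (0 < κ * (1 - dist q p) → c ∉ T q) :=
    (h.nhd z).and (hab.and (hp1'.and h1))
  obtain ⟨r, hr, hrV⟩ := Metric.eventually_nhds_iff_ball.1 hV
  -- moving
  have hmove : ∀ᶠ s in 𝓝 (0 : ℝ), x + (z - x) * cis (sg * s) ∈ ball z (r / 2) := by
    have hc : Continuous fun s : ℝ => x + (z - x) * cis (sg * s) := by
      have := continuous_cis
      fun_prop
    have h0 : x + (z - x) * cis (sg * 0) = z := by rw [mul_zero, cis0]; ring
    exact (hc.tendsto' 0 z h0).eventually (ball_mem_nhds z (by positivity : 0 < r / 2))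
  obtain ⟨ρ, hρ, hρm⟩ := Metric.eventually_nhds_iff_ball.1 hmove
  filter_upwards [Ioo_mem_nhdsGT (lt_min hρ one_pos)] with t ht
  have ht0 : 0 < t := ht.1
  have htρ : t < ρ := ht.2.trans_le (min_le_left _ _)
  have ht1 : t < 1 := ht.2.trans_le (min_le_right _ _)
  obtain ⟨g1, g2, -⟩ := hgeo t ⟨ht0, ht1⟩
  by_contra hat
  -- the three open conditions on `w`
  have o1 : ∀ᶠ w in 𝓝 x, a ∉ T (w + (z - x) * cis (sg * t)) := by
    have hc : Continuous fun w : ℂ => w + (z - x) * cis (sg * t) := by fun_prop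
    exact hc.continuousAt.eventually ((h.closed a).isOpen_compl.mem_nhds hat)
  have o2 : ∀ᶠ w in 𝓝 x, 0 < κ * (1 - dist (w + (z - x) * cis (sg * t)) p) := by
    have hc : Continuous fun w : ℂ => κ * (1 - dist (w + (z - x) * cis (sg * t)) p) := by fun_prop
    exact hc.continuousAt.eventually (Ioi_mem_nhds g1)
  have o3 : ∀ᶠ w in 𝓝 x, κ * (1 - dist (w + (z - x) * cis (sg * (-t))) p) < 0 := by
    have hc : Continuous fun w : ℂ => κ * (1 - dist (w + (z - x) * cis (sg * (-t))) p) := by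
      fun_prop
    exact hc.continuousAt.eventually (Iio_mem_nhds g2)
  obtain ⟨w, hwg, hw1, hw2, hw3, hw4⟩ := ((h.pure x g hg).and_eventually
    (o1.and (o2.and (o3.and (ball_mem_nhds x (by positivity : 0 < r / 2)))))).exists
  have hwU : w ∈ U g := h.mem_of_single hwg.subset
  let γ : ℝ → ℂ := fun s => w + (z - x) * cis (sg * s)
  have hγ : Continuous γ := by
    have := continuous_cis
    fun_prop
  have hγw : ∀ s, dist (γ s) w = 1 := fun s => by
    simp only [γ]
    rw [dist_eq_norm, add_sub_cancel_left, norm_mul, norm_cis, mul_one, ← dist_eq_norm, hzx]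
  have hgγ : ∀ s, g ∉ T (γ s) := fun s hgs =>
    h.mx.notMem' hwU (by rw [dist_comm]; exact hγw s) (h.sub _ hgs)
  have hin : ∀ s ∈ Icc (-t) t, γ s ∈ ball z r := by
    intro s hs
    have h2 := hρm s (by
      rw [mem_ball, Real.dist_eq, sub_zero, abs_lt]
      exact ⟨by linarith [hs.1], by linarith [hs.2]⟩)
    have h3 : dist (γ s) (x + (z - x) * cis (sg * s)) = dist w x := by
      simp only [γ]
      rw [dist_add_right]
    rw [mem_ball] at h2 ⊢
    have := dist_triangle (γ s) (x + (z - x) * cis (sg * s)) z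
    linarith
  have hφ : Continuous fun s : ℝ => κ * (1 - dist (γ s) p) := by fun_prop
  -- two closed sets
  have c1 : IsClosed ({s : ℝ | a ∈ T (γ s)} ∪ {s | κ * (1 - dist (γ s) p) ≤ 0}) :=
    ((h.closed a).preimage hγ).union (isClosed_le hφ continuous_const)
  have c2 : IsClosed ({s : ℝ | b ∈ T (γ s)} ∩ {s | 0 ≤ κ * (1 - dist (γ s) p)}) :=
    ((h.closed b).preimage hγ).inter (isClosed_le continuous_const hφ)
  have hlet : ∀ s ∈ Icc (-t) t, 0 < κ * (1 - dist (γ s) p) → a ∈ T (γ s) ∨ b ∈ T (γ s) := by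
    intro s hs hpos
    obtain ⟨v1, -, -, v4⟩ := hrV _ (hin s hs)
    obtain ⟨m, hm⟩ := h.ne (γ s)
    have h5 := hTz (v1 hm)
    simp only [mem_insert_iff, mem_singleton_iff] at h5
    rcases h5 with rfl | rfl | rfl | rfl
    · exact Or.inl hm
    · exact Or.inr hm
    · exact absurd hm (v4 hpos)
    · exact absurd hm (hgγ s)
  have hcov : Icc (-t) t ⊆ ({s : ℝ | a ∈ T (γ s)} ∪ {s | κ * (1 - dist (γ s) p) ≤ 0}) ∪
      ({s : ℝ | b ∈ T (γ s)} ∩ {s | 0 ≤ κ * (1 - dist (γ s) p)}) := by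
    intro s hs
    rcases le_or_gt (κ * (1 - dist (γ s) p)) 0 with h5 | h5
    · exact Or.inl (Or.inr h5)
    · rcases hlet s hs h5 with h6 | h6
      · exact Or.inl (Or.inl h6)
      · exact Or.inr ⟨h6, h5.le⟩
  have ht' : t ∈ Icc (-t) t := ⟨by linarith, le_rfl⟩
  have hbt : b ∈ T (γ t) := (hlet t ht' hw2).resolve_left hw1
  obtain ⟨s, hs, hs1, hs2, hs3⟩ := (isPreconnected_closed_iff.1 isPreconnected_Icc) _ _ c1 c2 hcov
    ⟨-t, ⟨le_rfl, by linarith⟩, Or.inr hw3.le⟩ ⟨t, ht', hbt, hw2.le⟩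
  obtain ⟨-, v2, v3, -⟩ := hrV _ (hin s hs)
  have has : a ∈ T (γ s) := by
    rcases hs1 with h5 | h5
    · exact h5
    · have h5 : κ * (1 - dist (γ s) p) ≤ 0 := h5
      have h6 : 0 ≤ κ * (1 - dist (γ s) p) := hs3
      have h7 : κ * (1 - dist (γ s) p) = 0 := le_antisymm h5 h6
      have h8 : dist (γ s) p = 1 := by
        rcases mul_eq_zero.1 h7 with h8 | h8
        · rcases hκ with rfl | rfl <;> norm_num at h8
        · linarith
      exact v3 h8 (hgγ s)
  exact hgγ s (v2 has hs2)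

end Vale.Agent.P032.Six
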