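import Vale.Agent.P032.S5.H286.CarrTop
import Vale.Agent.P032.S5.H286.Near
import Vale.Agent.P032.S5.H57.RingX
import Vale.Agent.P032.S5.H678.Lens0
import Vale.Agent.P032.S5.H585.GeoX
import Vale.Agent.P032.S5.H585.R2
import Vale.Agent.P032.S5.H830.FinX
import Vale.Agent.P032.S5.H830.RingX
import Vale.Agent.P032.S5.H180.Base
import Vale.Agent.P032.Carr.LamX
import Vale.Agent.P032.Carr.Ring

/-!
# P032: harmless exceptional points do not suffice

`Irr.carr` : there is no irredundant family for which every point with at least four colours (in a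
disc) is harmless and no two such points are at distance one.
-/

open Set Filter Topology Metric

noncomputable section

namespace Vale.Agent.P032.Carr

open Vale.Agent.P032.S5 Vale.Agent.P032.Six

variable {U : Fin 6 → Set ℂ} {T : ℂ → Set (Fin 6)} {Z : Set ℂ} {f : ℂ → Set (Fin 6)}
  {c : ℂ} {R δ₀ : ℝ} {v : ℂ}

/-- a base at an exceptional point is a clean base -/
theorem Reg.cbase (G : Reg U T f Z c R) (hvZ : v ∈ Z) (hvc : dist v c + 4 ≤ R)
    {S : Set (Fin 6)} (hS : Base T (Ex T Z f) v S) : H180.CBase T v S := by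
  have hA := G.harm hvZ
  refine ⟨toFace hS.1, fun y hy => ?_, Or.inr ?_⟩
  · refine G.le3 ?_ fun hyZ => G.free y hyZ v hvZ hy
    have := dist_triangle y v c
    linarith
  · have h1 : (T v \ S).ncard = 1 := by
      rw [Set.ncard_sdiff hS.1.2.1 (Set.toFinite _), hA.card, hS.1.1]
    obtain ⟨b, hb⟩ := Set.ncard_eq_one.1 h1
    have hbT : b ∈ T v \ S := by rw [hb]; rfl
    have hTv : T v = insert b S := by
      rw [← sdiff_union_of_subset hS.1.2.1, hb, singleton_union]
    obtain ⟨i, j, hij, hf⟩ := Set.ncard_eq_two.1 hA.cardA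
    have hfT : ∀ m ∈ f v, m = b ∨ m ∈ S := fun m hm => by
      have := hA.sub hm
      rw [hTv] at this
      exact this
    have hi : i ∈ f v := by rw [hf]; simp
    have hj : j ∈ f v := by rw [hf]; simp
    have hh : ∀ y, dist y v = 1 → T y ⊆ T v → i ∈ T y ∧ j ∈ T y := fun y hy hsub =>
      ⟨hA.h1 y hy hsub hi, hA.h1 y hy hsub hj⟩
    rcases hfT i hi with rfl | hiS
    · rcases hfT j hj with hji | hjS
      · exact absurd hji.symm hij
      · exact ⟨j, i, hjS, hbT.2, hTv, fun y hy hsub => (hh y hy hsub).symm⟩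
    · rcases hfT j hj with rfl | hjS
      · exact ⟨i, j, hiS, hbT.2, hTv, fun y hy hsub => hh y hy hsub⟩
      · exact absurd (Or.inl ⟨hvZ, hf⟩) (hS.2 i hiS j hjS hij)

/-- **The core.** -/
theorem Reg.core (G : Reg U T f Z c R) (H : Hm T Z f δ₀) (hvZ : v ∈ Z) (hvc : dist v c + 4 ≤ R)
    (hbase : Base T (Ex T Z f) v {3, 4, 5}) : False := by
  have hB : ∀ x ∈ closedBall v 1, dist x c ≤ R - 3 := fun x hx => by
    have h1 := mem_closedBall.1 hx
    have := dist_triangle x v c
    linarith
  have hD : ∀ x ∈ closedBall v 2, dist x c ≤ R - 2 := fun x hx => by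
    have h1 := mem_closedBall.1 hx
    have := dist_triangle x v c
    linarith
  have hBD : ∀ x ∈ closedBall v 1, closedBall x 1 ⊆ closedBall v 2 := fun x hx u hu => by
    have h1 := mem_closedBall.1 hx
    have h2 := mem_closedBall.1 hu
    have := dist_triangle u x v
    exact mem_closedBall.2 (by linarith)
  have hcompT : ∀ u ∈ closedBall v 2, ∀ u' ∈ closedBall v 2, ∀ s : Set (Fin 6),
      S5.Face T u s → S5.Face T u' sᶜ → 2 ≤ dist u u' := fun u hu u' hu' s hs hs' =>
    comp_T G.irr G.zs G.hml G.free (by linarith [hD u hu]) (by linarith [hD u' hu']) hs hs'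
  have hself : ∀ x ∈ closedBall v 1, x ∈ closedBall v 2 := fun x hx =>
    hBD x hx (mem_closedBall_self zero_le_one)
  have hcomp : ∀ x ∈ closedBall v 1, ∀ s : Set (Fin 6), S5.Face T x s → ∀ u, dist u x ≤ 1 →
      ¬ S5.Face T u sᶜ := fun x hx s hs u hu hface => by
    have h1 := hcompT x (hself x hx) u (hBD x hx hu) s hs hface
    rw [dist_comm] at h1
    linarith
  have hring := Vale.Agent.P032.S5.H57.hring_of G.irr G.zs G.hml G.free H (B := closedBall v 1)
    (fun x hx => by linarith [hB x hx]) hcomp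
  have hL : LamX T (Ex T Z f) (closedBall v 1) (lamT T Z f δ₀) :=
    lamX_of G.irr G.zs G.hml G.free H (fun x hx => by linarith [hB x hx]) hcomp
      (fun x hx S t b e htb hte hbe hS _ _ hint u u' hu hu' hux hux' huu hnot =>
        lens0_T G.irr G.zs G.hml G.free H (by linarith [hB x hx]) htb hte hbe hS.1 hint hu hu'
          hux hux' huu hnot) hring
  have hG : GeoX T (Ex T Z f) (closedBall v 1) (closedBall v 2) :=
    G.geoX (fun x hx => by linarith [hB x hx]) hBD hcompT
  have hSv : ∀ z ∈ Z, dist z v ≠ 1 := fun z hz => G.free z hz v hvZ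
  have hvB : v ∈ closedBall v 1 := mem_closedBall_self zero_le_one
  refine EndX.cech_endX hL hG Subset.rfl G.irr.nhd (fun x _ => G.irr.ne x) hbase.1 ?_ ?_
  · intro p hp Q hQB hQ hQp _ x hx y hy S S' hS hS' hpS hpS' hne
    refine G.irr.near hp hQ hQp hx hy hS.1 hS'.1 hpS hpS' hne ?_ ?_
    · intro z hz s hs w hw u hu hface
      exact hcompT z (hself z (hQB hz)) u (hBD w (hQB hw) hu) s hs hface
    · intro hxy
      by_contra hcon
      push Not at hcon
      refine G.free x (G.zs.mem x (mem_closedBall.2 ?_) (by omega)) y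
        (G.zs.mem y (mem_closedBall.2 ?_) (by omega)) hxy
      · linarith [hB x (hQB hx)]
      · linarith [hB y (hQB hy)]
  · refine EndX.ring_of G.irr.nhd hbase.1 (fun N => ?_) (fun y hy i j _ hi hj _ _ hE => ?_)
    · obtain ⟨N₀, hN₀⟩ := (G.cbase hvZ hvc hbase).ring_cech G.irr (d := 0) (e := 1) (by decide)
        (by decide) (by decide)
      exact ⟨max N N₀, le_max_left _ _, hN₀ _ (le_max_right _ _)⟩
    · obtain ⟨t, ht, htS, hev⟩ := G.R2 (by linarith) hbase.1 hSv hy
        (hcomp v hvB _ hbase.1 y hy.le) hi hj hE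
      exact ⟨t, ht, htS, hev.mono fun y' hy' h1 h2 => (hy' h1 h2).2⟩

/-- **Theorem.** Exceptional points which are all harmless, with no two of them at distance one, do
not exist: in the disc of radius `12` about any point there is either a point with at least four
colours which is not harmless, or two points with at least four colours at distance one. -/
theorem carr {U : Fin 6 → Set ℂ} {T : ℂ → Set (Fin 6)} (h : Irr U T) (c : ℂ)
    (hH : ∀ z, dist z c ≤ 12 → 4 ≤ (T z).ncard → ∃ A, Harm T z A)
    (hU : ∀ z z', dist z c ≤ 12 → dist z' c ≤ 12 → 4 ≤ (T z).ncard → 4 ≤ (T z').ncard →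
      dist z z' ≠ 1) : False :=
  carr_of_core (fun _ _ _ _ _ _ _ _ G H hvZ hvc hbase => G.core H hvZ hvc hbase) h c hH hU

end Vale.Agent.P032.Carr
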