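import Vale.Agent.P032.S5.H585.Exc
import Vale.Agent.P032.S5.H830.StateX
import Vale.Agent.P032.S5.No3

/-!
# P032: the outer layer of the theorem on harmless exceptional points

Permutations of the colours, the start vertex and the context.
-/

open Set Filter Topology Metric

noncomputable section

namespace Vale.Agent.P032.Six

variable {k : ℕ}

/-- permuting the colours -/
theorem Irr.perm {U : Fin k → Set ℂ} {T : ℂ → Set (Fin k)} (h : Irr U T)
    (σ : Equiv.Perm (Fin k)) : Irr (fun i => U (σ i)) (fun x => σ ⁻¹' T x) where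
  mx := h.mx.perm σ
  max := fun i x hx => h.max (σ i) x hx
  closed := fun i => h.closed (σ i)
  ne := fun x => by
    obtain ⟨i, hi⟩ := h.ne x
    exact ⟨σ.symm i, by simpa using hi⟩
  sub := fun x i hi => h.sub x hi
  off := fun x hx i hi => h.off x (by rwa [XX_perm] at hx) (σ i) hi
  pure := fun x i hi => (h.pure x (σ i) hi).mono fun w hw => by
    ext j
    simp [hw]

theorem ncard_perm (σ : Equiv.Perm (Fin k)) (S : Set (Fin k)) : (σ ⁻¹' S).ncard = S.ncard :=
  Set.ncard_preimage_of_injective_subset_range σ.injective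
    (by rw [σ.surjective.range_eq]; exact subset_univ _)

end Vale.Agent.P032.Six

namespace Vale.Agent.P032.Carr

open Vale.Agent.P032.S5 Vale.Agent.P032.Six

theorem preimage_inj (σ : Equiv.Perm (Fin 6)) {S S' : Set (Fin 6)} :
    σ ⁻¹' S ⊆ σ ⁻¹' S' ↔ S ⊆ S' :=
  Set.preimage_subset_preimage_iff (by rw [σ.surjective.range_eq]; exact subset_univ _)

/-- permuting the colours of a harmless point -/
theorem harm_perm {T : ℂ → Set (Fin 6)} {z : ℂ} {A : Set (Fin 6)} (hz : Harm T z A)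
    (σ : Equiv.Perm (Fin 6)) : Harm (fun x => σ ⁻¹' T x) z (σ ⁻¹' A) where
  card := by rw [ncard_perm]; exact hz.card
  cardA := by rw [ncard_perm]; exact hz.cardA
  sub := (preimage_inj σ).2 hz.sub
  h1 := fun y hy hsub => (preimage_inj σ).2 (hz.h1 y hy ((preimage_inj σ).1 hsub))
  arc := by
    obtain ⟨p, hp, hev⟩ := hz.arc
    exact ⟨p, hp, hev.mono fun q hq => by rw [hq]⟩

/-- permuting the colours of a face -/
theorem face_perm {T : ℂ → Set (Fin 6)} {x : ℂ} {S : Set (Fin 6)} (hS : S5.Face T x S)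
    (σ : Equiv.Perm (Fin 6)) : S5.Face (fun x => σ ⁻¹' T x) x (σ ⁻¹' S) :=
  ⟨by rw [ncard_perm]; exact hS.1, (preimage_inj σ).2 hS.2.1,
    fun y hy hsub => hS.2.2 y hy ((preimage_inj σ).1 hsub)⟩

/-- a face at a harmless point, which does not contain the forbidden pair -/
theorem exists_face {T : ℂ → Set (Fin 6)} {z : ℂ} {A : Set (Fin 6)} (hz : Harm T z A) :
    ∃ S : Set (Fin 6), S5.Face T z S ∧ ¬ A ⊆ S := by
  obtain ⟨b, hb⟩ := Set.nonempty_of_ncard_ne_zero (s := A) (by rw [hz.cardA]; norm_num)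
  refine ⟨T z \ {b}, ⟨?_, sdiff_subset, fun y hy hsub => ?_⟩, fun h => (h hb).2 rfl⟩
  · rw [Set.ncard_sdiff_singleton_of_mem (hz.sub hb), hz.card]
  · exact (hsub (hz.h1 y hy (hsub.trans sdiff_subset) hb)).2 rfl

/-- **The outer layer.** The final statement from the core statement at a base of type `{3, 4, 5}`
of an exceptional point. -/
theorem carr_of_core
    (core : ∀ (U : Fin 6 → Set ℂ) (T : ℂ → Set (Fin 6)) (Z : Set ℂ) (f : ℂ → Set (Fin 6)) (c : ℂ)
      (R δ₀ : ℝ) (v : ℂ), Reg U T f Z c R → Hm T Z f δ₀ → v ∈ Z → dist v c + 4 ≤ R →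
      Base T (Ex T Z f) v {3, 4, 5} → False)
    {U : Fin 6 → Set ℂ} {T : ℂ → Set (Fin 6)} (h : Irr U T) (c : ℂ)
    (hH : ∀ z, dist z c ≤ 12 → 4 ≤ (T z).ncard → ∃ A, Harm T z A)
    (hU : ∀ z z', dist z c ≤ 12 → dist z' c ≤ 12 → 4 ≤ (T z).ncard → 4 ≤ (T z').ncard →
      dist z z' ≠ 1) : False := by
  obtain ⟨v, hvc, hv4⟩ := h.exists_four c
  obtain ⟨A, hA⟩ := hH v (by linarith) hv4
  obtain ⟨S, hS, hAS⟩ := exists_face hA
  obtain ⟨σ, hσ⟩ := exists_perm hS.1
  have h' := h.perm σ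
  obtain ⟨Z, hZ⟩ := exists_Zs h' c 11
  have hH' : ∀ z ∈ ball c (11 + 1), 4 ≤ (σ ⁻¹' T z).ncard →
      ∃ A, Harm (fun x => σ ⁻¹' T x) z A := by
    intro z hz h4
    rw [ncard_perm] at h4
    have hz' : dist z c < 11 + 1 := hz
    obtain ⟨B, hB⟩ := hH z (by linarith) h4
    exact ⟨_, harm_perm hB σ⟩
  choose! f hf using hH'
  have hl : Hml (fun x => σ ⁻¹' T x) f (ball c (11 + 1)) :=
    ⟨fun z hz h4 => (hf z hz h4).card, fun z hz h4 => (hf z hz h4).cardA,
      fun z hz h4 => (hf z hz h4).sub, fun z hz h4 => (hf z hz h4).h1, fun z hz h4 => by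
        obtain ⟨p, hp, hev⟩ := (hf z hz h4).arc
        exact ⟨p, hp, hev.self_of_nhdsWithin (mem_sphere.2 hp)⟩⟩
  obtain ⟨δ₀, H⟩ := exists_Hm_of h' hZ hl
  have hZball : ∀ z ∈ Z, dist z c ≤ 12 := fun z hz => by
    have := mem_ball.1 (hZ.sub hz)
    linarith
  have hZ4 : ∀ z ∈ Z, 4 ≤ (T z).ncard := fun z hz => by
    have := hZ.four z hz
    rwa [ncard_perm] at this
  have hG : Reg (fun i => U (σ i)) (fun x => σ ⁻¹' T x) f Z c 11 :=
    ⟨h', hZ, hl, fun z hz z' hz' => hU z z' (hZball z hz) (hZball z' hz') (hZ4 z hz) (hZ4 z' hz')⟩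
  have hvZ : v ∈ Z := hZ.mem v (mem_closedBall.2 (by linarith)) (by rw [ncard_perm]; exact hv4)
  have hfv : f v = σ ⁻¹' A :=
    (harm_perm hA σ).unique (hG.harm hvZ)
  refine core _ _ Z f c 11 δ₀ v hG H hvZ (by linarith) ⟨?_, fun i hi j hj hij hE => ?_⟩
  · rw [← hσ]
    exact face_perm hS σ
  · rcases hE with ⟨-, hE⟩ | ⟨hE, -⟩
    · apply hAS
      rw [← preimage_inj σ, hσ, ← hfv, hE]
      rintro m (rfl | rfl)
      · exact hi
      · exact hj
    · exact hE hvZ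

end Vale.Agent.P032.Carr
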